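import Mathlib

/-!
# Uniqueness of optimal prices for semi-discrete transport (support for P074)

Laguerre cells of a finite family of sites `y j` with prices `c j` inside a compact convex set
`K`; if two price vectors give cells of the same positive volumes, the prices differ by a
constant.
-/

namespace Vale.Agent.H32

open MeasureTheory Set Metric

section basic

variable {E : Type*} [NormedAddCommGroup E] [InnerProductSpace ℝ E]
variable {ι : Type*}

/-- The Laguerre cell of site `j` inside `K`. -/
def lagCell (K : Set E) (y : ι → E) (c : ι → ℝ) (j : ι) : Set E :=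
  {x | x ∈ K ∧ ∀ k, inner ℝ x (y k) - c k ≤ inner ℝ x (y j) - c j}

theorem lagCell_subset (K : Set E) (y : ι → E) (c : ι → ℝ) (j : ι) : lagCell K y c j ⊆ K :=
  fun _ hx => hx.1

theorem isClosed_lagCell {K : Set E} (hK : IsClosed K) (y : ι → E) (c : ι → ℝ) (j : ι) :
    IsClosed (lagCell K y c j) := by
  have h : lagCell K y c j
      = K ∩ ⋂ k, {x | inner ℝ x (y k) - c k ≤ inner ℝ x (y j) - c j} := by
    ext x
    simp [lagCell]
  rw [h]
  refine hK.inter (isClosed_iInter fun k => ?_)
  exact isClosed_le (by fun_prop) (by fun_prop)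

theorem convex_lagCell {K : Set E} (hK : Convex ℝ K) (y : ι → E) (c : ι → ℝ) (j : ι) :
    Convex ℝ (lagCell K y c j) := by
  intro x hx z hz a b ha hb hab
  refine ⟨hK hx.1 hz.1 ha hb hab, fun k => ?_⟩
  have h1 := hx.2 k
  have h2 := hz.2 k
  simp only [inner_add_left, inner_smul_left, RCLike.conj_to_real]
  have e : c k = a * c k + b * c k := by rw [← add_mul, hab, one_mul]
  have e' : c j = a * c j + b * c j := by rw [← add_mul, hab, one_mul]
  nlinarith [mul_le_mul_of_nonneg_left h1 ha, mul_le_mul_of_nonneg_left h2 hb]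

theorem exists_mem_lagCell [Finite ι] [Nonempty ι] {K : Set E} (y : ι → E) (c : ι → ℝ) {x : E}
    (hx : x ∈ K) : ∃ j, x ∈ lagCell K y c j := by
  obtain ⟨j, hj⟩ := Finite.exists_max (fun k => inner ℝ x (y k) - c k)
  exact ⟨j, hx, hj⟩

theorem lagCell_add_const (K : Set E) (y : ι → E) (c : ι → ℝ) (t : ℝ) (j : ι) :
    lagCell K y (fun k => c k + t) j = lagCell K y c j := by
  ext x
  constructor
  · rintro ⟨hx, h⟩
    exact ⟨hx, fun k => by have := h k; linarith⟩
  · rintro ⟨hx, h⟩
    exact ⟨hx, fun k => by have := h k; simp only; linarith⟩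

end basic

variable {E : Type*} [NormedAddCommGroup E] [InnerProductSpace ℝ E] [FiniteDimensional ℝ E]
  [MeasurableSpace E] [BorelSpace E]
variable {ι : Type*} [Fintype ι]

/-- A convex set of positive volume has positive volume in every ball around each of its
points. -/
theorem convex_inter_ball_pos {S : Set E} (hS : Convex ℝ S) (hpos : 0 < volume S) {x : E}
    (hx : x ∈ S) {r : ℝ} (hr : 0 < r) : 0 < volume (S ∩ ball x r) := by
  have hfr : volume (frontier S) = 0 := hS.addHaar_frontier volume
  have hint : (interior S).Nonempty := by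
    by_contra hne
    rw [Set.not_nonempty_iff_eq_empty] at hne
    have hsub : S ⊆ frontier S := by
      intro z hz
      rw [frontier, hne, sdiff_empty]
      exact subset_closure hz
    have := measure_mono_null hsub hfr
    rw [this] at hpos
    exact lt_irrefl _ hpos
  have hcl : x ∈ closure (interior S) := by
    rw [hS.closure_interior_eq_closure_of_nonempty_interior hint]
    exact subset_closure hx
  obtain ⟨z, hz, hzx⟩ := Metric.mem_closure_iff.mp hcl r hr
  have hopen : IsOpen (interior S ∩ ball x r) := isOpen_interior.inter isOpen_ball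
  have hne : (interior S ∩ ball x r).Nonempty :=
    ⟨z, hz, by rw [mem_ball, dist_comm]; exact hzx⟩
  have h1 : 0 < volume (interior S ∩ ball x r) := hopen.measure_pos volume hne
  exact h1.trans_le (measure_mono (inter_subset_inter_left _ interior_subset))

/-- Two price vectors whose Laguerre cells in a compact convex set have the same positive
volumes differ by a constant. -/
theorem prices_unique [Nonempty ι] {K : Set E} (hKc : IsCompact K) (hKconv : Convex ℝ K)
    (y : ι → E) (c c' : ι → ℝ)
    (hpos : ∀ j, 0 < volume {x | x ∈ K ∧ ∀ k, inner ℝ x (y k) - c k ≤ inner ℝ x (y j) - c j})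
    (heq : ∀ j, volume {x | x ∈ K ∧ ∀ k, inner ℝ x (y k) - c' k ≤ inner ℝ x (y j) - c' j}
      = volume {x | x ∈ K ∧ ∀ k, inner ℝ x (y k) - c k ≤ inner ℝ x (y j) - c j}) :
    ∃ a : ℝ, ∀ j, c' j = c j + a := by
  change ∀ j, 0 < volume (lagCell K y c j) at hpos
  change ∀ j, volume (lagCell K y c' j) = volume (lagCell K y c j) at heq
  obtain ⟨j0, hj0⟩ := Finite.exists_max (fun j => c' j - c j)
  refine ⟨c' j0 - c j0, ?_⟩
  by_contra hcon
  obtain ⟨k0, hk0⟩ := not_forall.mp hcon
  have hk0' : c' k0 - c k0 < c' j0 - c j0 := by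
    rcases lt_or_eq_of_le (hj0 k0) with h | h
    · exact h
    · exact absurd (by linarith) hk0
  -- the two closed sets
  set a := c' j0 - c j0 with ha
  let U : Set E := ⋃ j ∈ {j | c' j - c j = a}, lagCell K y c j
  let V : Set E := ⋃ k ∈ {k | c' k - c k ≠ a}, lagCell K y c k
  have hKcl : IsClosed K := hKc.isClosed
  have hUcl : IsClosed U :=
    (Set.toFinite _).isClosed_biUnion fun j _ => isClosed_lagCell hKcl y c j
  have hVcl : IsClosed V :=
    (Set.toFinite _).isClosed_biUnion fun j _ => isClosed_lagCell hKcl y c j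
  have hcov : K ⊆ U ∪ V := by
    intro x hx
    obtain ⟨j, hj⟩ := exists_mem_lagCell y c hx
    by_cases hja : c' j - c j = a
    · exact Or.inl (mem_biUnion hja hj)
    · exact Or.inr (mem_biUnion hja hj)
  have hne : ∀ j, (lagCell K y c j).Nonempty := fun j =>
    nonempty_of_measure_ne_zero (hpos j).ne'
  have hKU : (K ∩ U).Nonempty := by
    obtain ⟨x, hx⟩ := hne j0
    exact ⟨x, hx.1, mem_biUnion (show c' j0 - c j0 = a from rfl) hx⟩
  have hKV : (K ∩ V).Nonempty := by
    obtain ⟨x, hx⟩ := hne k0
    exact ⟨x, hx.1, mem_biUnion (show c' k0 - c k0 ≠ a from hk0'.ne) hx⟩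
  obtain ⟨x, -, hxU, hxV⟩ :=
    isPreconnected_closed_iff.mp hKconv.isPreconnected U V hUcl hVcl hcov hKU hKV
  obtain ⟨j, hja, hxj⟩ := mem_iUnion₂.mp hxU
  obtain ⟨k, hka, hxk⟩ := mem_iUnion₂.mp hxV
  have hja' : c' j - c j = a := hja
  have hka' : c' k - c k < a := lt_of_le_of_ne (hj0 k) hka
  -- strict inequality at x, hence near x
  have hstrict : inner ℝ x (y j) - c' j < inner ℝ x (y k) - c' k := by
    have h1 := hxk.2 j
    linarith
  have hcont : Continuous fun z : E => (inner ℝ z (y k) - c' k) - (inner ℝ z (y j) - c' j) := by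
    fun_prop
  have hnhds : ∀ᶠ z in nhds x, 0 < (inner ℝ z (y k) - c' k) - (inner ℝ z (y j) - c' j) :=
    hcont.continuousAt.eventually (lt_mem_nhds (by linarith))
  obtain ⟨r, hr, hball⟩ := Metric.eventually_nhds_iff.mp hnhds
  -- the cell of j under c' is inside the cell under c and misses the ball
  have hsub : lagCell K y c' j ⊆ lagCell K y c j := by
    intro z hz
    refine ⟨hz.1, fun k' => ?_⟩
    have h1 := hz.2 k'
    have h2 := hj0 k'
    linarith
  have hmiss : lagCell K y c j ∩ ball x r ⊆ lagCell K y c j \ lagCell K y c' j := by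
    intro z hz
    refine ⟨hz.1, fun hz' => ?_⟩
    have h1 := hz'.2 k
    have h2 := hball (mem_ball.mp hz.2)
    linarith
  have hfin : volume (lagCell K y c' j) ≠ ⊤ :=
    ((measure_mono (lagCell_subset K y c' j)).trans_lt hKc.measure_lt_top).ne
  have hdiff : volume (lagCell K y c j \ lagCell K y c' j) = 0 := by
    rw [measure_sdiff hsub (isClosed_lagCell hKcl y c' j).measurableSet.nullMeasurableSet hfin,
      heq j, tsub_self]
  have hposball : 0 < volume (lagCell K y c j ∩ ball x r) :=
    convex_inter_ball_pos (convex_lagCell hKconv y c j) (hpos j) hxj hr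
  have := measure_mono_null hmiss hdiff
  rw [this] at hposball
  exact lt_irrefl _ hposball

/-- A hyperplane has volume zero. -/
theorem volume_hyperplane_eq_zero {v : E} (hv : v ≠ 0) (b : ℝ) :
    volume {x : E | inner ℝ x v = b} = 0 := by
  have hvv : 0 < inner ℝ v v := real_inner_self_pos.mpr hv
  have hmeas : MeasurableSet {x : E | inner ℝ x v = b} :=
    (isClosed_eq (by fun_prop) continuous_const).measurableSet
  refine Measure.addHaar_eq_zero_of_disjoint_translates volume
    (fun n : ℕ => ((1 : ℝ) / (n + 1)) • v) ?_ ?_ hmeas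
  · refine (Metric.isBounded_closedBall (x := (0 : E)) (r := ‖v‖)).subset ?_
    rintro _ ⟨n, rfl⟩
    rw [mem_closedBall_zero_iff, norm_smul]
    have h1 : ‖(1 : ℝ) / (n + 1)‖ ≤ 1 := by
      rw [Real.norm_eq_abs, abs_of_nonneg (by positivity)]
      rw [div_le_one (by positivity)]
      linarith [(Nat.cast_nonneg n : (0 : ℝ) ≤ n)]
    calc ‖(1 : ℝ) / (n + 1)‖ * ‖v‖ ≤ 1 * ‖v‖ := mul_le_mul_of_nonneg_right h1 (norm_nonneg v)
      _ = ‖v‖ := one_mul _
  · intro m n hmn
    rw [Function.onFun, Set.disjoint_left]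
    rintro x ⟨_, hm1, a, ha, rfl⟩ ⟨_, hn1, a', ha', hx⟩
    rw [mem_singleton_iff] at hm1 hn1
    subst hm1 hn1
    simp only at hx
    have h1 : inner ℝ (((1 : ℝ) / (n + 1)) • v + a') v = inner ℝ (((1 : ℝ) / (m + 1)) • v + a) v := by
      rw [hx]
    rw [inner_add_left, inner_add_left, inner_smul_left, inner_smul_left,
      show inner ℝ a v = b from ha, show inner ℝ a' v = b from ha'] at h1
    simp only [RCLike.conj_to_real] at h1
    have h2 : (1 : ℝ) / (n + 1) = 1 / (m + 1) := by
      have h3 : (1 : ℝ) / (n + 1) * inner ℝ v v = 1 / (m + 1) * inner ℝ v v := by linarith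
      exact mul_right_cancel₀ hvv.ne' h3
    have h4 : (n : ℝ) + 1 = m + 1 := by
      have hn0 : (0 : ℝ) < n + 1 := by positivity
      have hm0 : (0 : ℝ) < m + 1 := by positivity
      field_simp at h2
      linarith
    have h5 : (n : ℝ) = m := by linarith
    exact hmn (Nat.cast_injective h5).symm

/-- The volume of a Laguerre cell depends continuously on the prices (distinct sites). -/
theorem tendsto_volume_lagCell {K : Set E} (hKc : IsCompact K) (y : ι → E)
    (hy : Function.Injective y) (cs : ℕ → ι → ℝ) (c : ι → ℝ)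
    (hcs : Filter.Tendsto cs Filter.atTop (nhds c)) (j : ι) :
    Filter.Tendsto (fun n => volume (lagCell K y (cs n) j)) Filter.atTop
      (nhds (volume (lagCell K y c j))) := by
  have hKcl : IsClosed K := hKc.isClosed
  refine tendsto_measure_of_ae_tendsto_indicator Filter.atTop
    (isClosed_lagCell hKcl y c j).measurableSet
    (fun n => (isClosed_lagCell hKcl y (cs n) j).measurableSet) hKcl.measurableSet
    hKc.measure_lt_top.ne (Filter.Eventually.of_forall fun n => lagCell_subset K y (cs n) j) ?_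
  -- the exceptional null set
  have hnull : volume (⋃ k ∈ {k : ι | k ≠ j},
      {x : E | inner ℝ x (y k - y j) = c k - c j}) = 0 := by
    refine (measure_biUnion_null_iff (Set.to_countable _)).mpr fun k hk => ?_
    exact volume_hyperplane_eq_zero (sub_ne_zero.mpr fun h => hk (hy h)) _
  have hcoord : ∀ k, Filter.Tendsto (fun n => cs n k) Filter.atTop (nhds (c k)) :=
    fun k => (tendsto_pi_nhds.mp hcs) k
  rw [← compl_mem_ae_iff] at hnull
  filter_upwards [hnull] with x hx
  have hx' : ∀ k, k ≠ j → inner ℝ x (y k) - c k ≠ inner ℝ x (y j) - c j := by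
    intro k hk heq
    apply hx
    refine mem_biUnion hk ?_
    change inner ℝ x (y k - y j) = c k - c j
    rw [inner_sub_right]
    linarith
  by_cases hxK : x ∈ K
  · by_cases hall : ∀ k, k ≠ j → inner ℝ x (y k) - c k < inner ℝ x (y j) - c j
    · -- eventually inside
      have hev : ∀ᶠ n in Filter.atTop, ∀ k, k ≠ j →
          inner ℝ x (y k) - cs n k < inner ℝ x (y j) - cs n j := by
        rw [Filter.eventually_all]
        intro k
        by_cases hk : k = j
        · exact Filter.Eventually.of_forall fun n h => absurd hk h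
        · have ht : Filter.Tendsto
              (fun n => (inner ℝ x (y j) - cs n j) - (inner ℝ x (y k) - cs n k)) Filter.atTop
              (nhds ((inner ℝ x (y j) - c j) - (inner ℝ x (y k) - c k))) :=
            ((hcoord j).const_sub _).sub ((hcoord k).const_sub _)
          have hpos : 0 < (inner ℝ x (y j) - c j) - (inner ℝ x (y k) - c k) := by
            linarith [hall k hk]
          filter_upwards [ht.eventually (lt_mem_nhds hpos)] with n hn _
          linarith
      filter_upwards [hev] with n hn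
      have h1 : x ∈ lagCell K y (cs n) j := by
        refine ⟨hxK, fun k => ?_⟩
        by_cases hk : k = j
        · rw [hk]
        · exact (hn k hk).le
      have h2 : x ∈ lagCell K y c j := by
        refine ⟨hxK, fun k => ?_⟩
        by_cases hk : k = j
        · rw [hk]
        · exact (hall k hk).le
      exact ⟨fun _ => h2, fun _ => h1⟩
    · -- eventually outside
      obtain ⟨k, hk⟩ := not_forall.mp hall
      obtain ⟨hkj, hk2⟩ := Classical.not_imp.mp hk
      have hgt : inner ℝ x (y j) - c j < inner ℝ x (y k) - c k :=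
        lt_of_le_of_ne (not_lt.mp hk2) (hx' k hkj).symm
      have ht : Filter.Tendsto
          (fun n => (inner ℝ x (y k) - cs n k) - (inner ℝ x (y j) - cs n j)) Filter.atTop
          (nhds ((inner ℝ x (y k) - c k) - (inner ℝ x (y j) - c j))) :=
        ((hcoord k).const_sub _).sub ((hcoord j).const_sub _)
      have hpos : 0 < (inner ℝ x (y k) - c k) - (inner ℝ x (y j) - c j) := by linarith
      filter_upwards [ht.eventually (lt_mem_nhds hpos)] with n hn
      have h1 : x ∉ lagCell K y (cs n) j := fun h => by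
        have := h.2 k
        linarith
      have h2 : x ∉ lagCell K y c j := fun h => by
        have := h.2 k
        linarith
      exact ⟨fun h => absurd h h1, fun h => absurd h h2⟩
  · exact Filter.Eventually.of_forall fun n =>
      ⟨fun h => absurd h.1 hxK, fun h => absurd h.1 hxK⟩

omit [FiniteDimensional ℝ E] [MeasurableSpace E] [BorelSpace E] in
/-- If all cells are nonempty, price differences are bounded in terms of `K` and the sites. -/
theorem price_diff_le {K : Set E} {R : ℝ} (hR : ∀ x ∈ K, ‖x‖ ≤ R) (y : ι → E) (c : ι → ℝ)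
    (hne : ∀ j, (lagCell K y c j).Nonempty) (j k : ι) :
    c j - c k ≤ R * (2 * ∑ i, ‖y i‖) := by
  obtain ⟨x, hx⟩ := hne j
  have h1 := hx.2 k
  have h2 : inner ℝ x (y j - y k) ≤ ‖x‖ * ‖y j - y k‖ := real_inner_le_norm _ _
  have h3 : ‖y j - y k‖ ≤ 2 * ∑ i, ‖y i‖ := by
    have hj : ‖y j‖ ≤ ∑ i, ‖y i‖ :=
      Finset.single_le_sum (f := fun i => ‖y i‖) (fun i _ => norm_nonneg _) (Finset.mem_univ j)
    have hk : ‖y k‖ ≤ ∑ i, ‖y i‖ :=
      Finset.single_le_sum (f := fun i => ‖y i‖) (fun i _ => norm_nonneg _) (Finset.mem_univ k)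
    calc ‖y j - y k‖ ≤ ‖y j‖ + ‖y k‖ := norm_sub_le _ _
      _ ≤ 2 * ∑ i, ‖y i‖ := by linarith
  have hR0 : 0 ≤ R := (norm_nonneg x).trans (hR x hx.1)
  have hsum0 : 0 ≤ 2 * ∑ i, ‖y i‖ := (norm_nonneg _).trans h3
  have h4 : ‖x‖ * ‖y j - y k‖ ≤ R * (2 * ∑ i, ‖y i‖) :=
    mul_le_mul (hR x hx.1) h3 (norm_nonneg _) hR0
  rw [inner_sub_right] at h2
  linarith

/-- Stability of optimal prices: if the cell volumes of `c` are close to those of `c0`
(positive volumes, distinct sites, `K` compact convex), then `c` is close to `c0` up to a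
constant. -/
theorem prices_stable [Nonempty ι] {K : Set E} (hKc : IsCompact K) (hKconv : Convex ℝ K)
    (y : ι → E) (hy : Function.Injective y) (c0 : ι → ℝ)
    (hpos : ∀ j, 0 < volume {x | x ∈ K ∧ ∀ k, inner ℝ x (y k) - c0 k ≤ inner ℝ x (y j) - c0 j})
    {ε : ℝ} (hε : 0 < ε) :
    ∃ η : ℝ, 0 < η ∧ ∀ c : ι → ℝ,
      (∀ j, |(volume {x | x ∈ K ∧ ∀ k, inner ℝ x (y k) - c k ≤ inner ℝ x (y j) - c j}).toReal
          - (volume {x | x ∈ K ∧ ∀ k, inner ℝ x (y k) - c0 k ≤ inner ℝ x (y j) - c0 j}).toReal|
            ≤ η) →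
      ∃ a : ℝ, ∀ j, |c j - c0 j - a| < ε := by
  change ∀ j, 0 < volume (lagCell K y c0 j) at hpos
  change ∃ η : ℝ, 0 < η ∧ ∀ c : ι → ℝ,
      (∀ j, |(volume (lagCell K y c j)).toReal - (volume (lagCell K y c0 j)).toReal| ≤ η) →
      ∃ a : ℝ, ∀ j, |c j - c0 j - a| < ε
  have hfin : ∀ (c : ι → ℝ) (j : ι), volume (lagCell K y c j) ≠ ⊤ := fun c j =>
    ((measure_mono (lagCell_subset K y c j)).trans_lt hKc.measure_lt_top).ne
  have hmpos : ∀ j, 0 < (volume (lagCell K y c0 j)).toReal := fun j =>
    ENNReal.toReal_pos (hpos j).ne' (hfin c0 j)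
  obtain ⟨jm, hjm⟩ := Finite.exists_min (fun j => (volume (lagCell K y c0 j)).toReal)
  set mm := (volume (lagCell K y c0 jm)).toReal with hmm
  have hmm0 : 0 < mm := hmpos jm
  by_contra hcon
  have hcon' : ∀ η : ℝ, 0 < η → ∃ c : ι → ℝ,
      (∀ j, |(volume (lagCell K y c j)).toReal - (volume (lagCell K y c0 j)).toReal| ≤ η) ∧
      ∀ a : ℝ, ∃ j, ε ≤ |c j - c0 j - a| := by
    intro η hη
    by_contra h
    apply hcon
    refine ⟨η, hη, fun c hc => ?_⟩
    by_contra h2
    apply h
    refine ⟨c, hc, fun a => ?_⟩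
    by_contra h3
    apply h2
    refine ⟨a, fun j => ?_⟩
    by_contra h4
    exact h3 ⟨j, not_lt.mp h4⟩
  have hηpos : ∀ n : ℕ, 0 < min (mm / 2) (1 / ((n : ℝ) + 1)) := fun n =>
    lt_min (by positivity) (by positivity)
  choose cs hcs1 hcs2 using fun n : ℕ => hcon' _ (hηpos n)
  -- all cells of cs n are nonempty
  have hne : ∀ n j, (lagCell K y (cs n) j).Nonempty := by
    intro n j
    apply nonempty_of_measure_ne_zero (μ := volume)
    intro h0
    have h1 := hcs1 n j
    rw [h0, ENNReal.toReal_zero, zero_sub, abs_neg, abs_of_pos (hmpos j)] at h1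
    have h2 : mm ≤ (volume (lagCell K y c0 j)).toReal := hjm j
    have h3 : min (mm / 2) (1 / ((n : ℝ) + 1)) ≤ mm / 2 := min_le_left _ _
    linarith
  obtain ⟨R, hR⟩ := hKc.isBounded.exists_norm_le
  obtain ⟨j0⟩ := ‹Nonempty ι›
  -- normalised prices
  let ct : ℕ → ι → ℝ := fun n j => cs n j + (c0 j0 - cs n j0)
  have hcell : ∀ n j, lagCell K y (ct n) j = lagCell K y (cs n) j := fun n j =>
    lagCell_add_const K y (cs n) _ j
  set B := R * (2 * ∑ i, ‖y i‖) with hB
  have hbdd : ∀ n, ct n ∈ Metric.closedBall (fun _ : ι => c0 j0) (|B|) := by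
    intro n
    rw [mem_closedBall, dist_pi_le_iff (abs_nonneg B)]
    intro j
    have h1 := price_diff_le hR y (cs n) (hne n) j j0
    have h2 := price_diff_le hR y (cs n) (hne n) j0 j
    rw [Real.dist_eq]
    have h3 : ct n j - c0 j0 = cs n j - cs n j0 := by simp only [ct]; ring
    rw [h3, abs_le]
    constructor
    · linarith [neg_abs_le B, le_abs_self B]
    · linarith [le_abs_self B]
  obtain ⟨cstar, -, φ, hφ, hlim⟩ :=
    tendsto_subseq_of_bounded Metric.isBounded_closedBall hbdd
  -- volumes converge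
  have hvol : ∀ j, volume (lagCell K y cstar j) = volume (lagCell K y c0 j) := by
    intro j
    have h1 : Filter.Tendsto (fun n => (volume (lagCell K y ((ct ∘ φ) n) j)).toReal)
        Filter.atTop (nhds (volume (lagCell K y cstar j)).toReal) :=
      (ENNReal.tendsto_toReal (hfin cstar j)).comp
        (tendsto_volume_lagCell hKc y hy (ct ∘ φ) cstar hlim j)
    have h2 : Filter.Tendsto (fun n => (volume (lagCell K y ((ct ∘ φ) n) j)).toReal)
        Filter.atTop (nhds (volume (lagCell K y c0 j)).toReal) := by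
      rw [tendsto_iff_dist_tendsto_zero]
      have hle : ∀ n : ℕ, dist (volume (lagCell K y ((ct ∘ φ) n) j)).toReal
          (volume (lagCell K y c0 j)).toReal ≤ 1 / ((n : ℝ) + 1) := by
        intro n
        rw [Real.dist_eq, Function.comp_apply, hcell]
        have h3 := hcs1 (φ n) j
        have h4 : min (mm / 2) (1 / ((φ n : ℝ) + 1)) ≤ 1 / ((φ n : ℝ) + 1) := min_le_right _ _
        have h5 : (1 : ℝ) / ((φ n : ℝ) + 1) ≤ 1 / ((n : ℝ) + 1) := by
          apply one_div_le_one_div_of_le (by positivity)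
          have : (n : ℝ) ≤ φ n := by exact_mod_cast hφ.id_le n
          linarith
        linarith
      exact squeeze_zero (fun n => dist_nonneg) hle tendsto_one_div_add_atTop_nhds_zero_nat
    have h3 := tendsto_nhds_unique h1 h2
    exact (ENNReal.toReal_eq_toReal_iff' (hfin cstar j) (hfin c0 j)).mp h3
  obtain ⟨a, ha⟩ := prices_unique hKc hKconv y c0 cstar hpos hvol
  -- contradiction for large n
  have hev : ∀ᶠ n in Filter.atTop, dist ((ct ∘ φ) n) cstar < ε :=
    (Metric.tendsto_nhds.mp hlim) ε hε
  obtain ⟨n, hn⟩ := hev.exists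
  obtain ⟨j, hj⟩ := hcs2 (φ n) (a - (c0 j0 - cs (φ n) j0))
  have h1 : dist ((ct ∘ φ) n j) (cstar j) < ε := lt_of_le_of_lt (dist_le_pi_dist _ _ j) hn
  rw [Real.dist_eq, Function.comp_apply, ha j] at h1
  have h2 : ct (φ n) j - (c0 j + a) = cs (φ n) j - c0 j - (a - (c0 j0 - cs (φ n) j0)) := by
    simp only [ct]; ring
  rw [h2] at h1
  linarith

omit [Fintype ι] in
/-- Suprema of two finite real families that agree up to a shift `a` and an error `e`. -/
theorem abs_iSup_sub_iSup_le [Finite ι] [Nonempty ι] (f h : ι → ℝ) {a e : ℝ}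
    (hfh : ∀ j, |f j - h j - a| ≤ e) : |(⨆ j, f j) - (⨆ j, h j) - a| ≤ e := by
  have hbf : BddAbove (Set.range f) := Set.finite_range f |>.bddAbove
  have hbh : BddAbove (Set.range h) := Set.finite_range h |>.bddAbove
  rw [abs_le]
  constructor
  · have h1 : (⨆ j, h j) ≤ (⨆ j, f j) - a + e := by
      refine ciSup_le fun j => ?_
      have h2 := (abs_le.mp (hfh j)).1
      have h3 := le_ciSup hbf j
      linarith
    linarith
  · have h1 : (⨆ j, f j) ≤ (⨆ j, h j) + a + e := by
      refine ciSup_le fun j => ?_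
      have h2 := (abs_le.mp (hfh j)).2
      have h3 := le_ciSup hbh j
      linarith
    linarith

omit [FiniteDimensional ℝ E] [MeasurableSpace E] [BorelSpace E] in
/-- The Laguerre potential is continuous. -/
theorem continuous_lagPot [Nonempty ι] (y : ι → E) (c : ι → ℝ) :
    Continuous fun x : E => ⨆ j, (inner ℝ x (y j) - c j) := by
  have h : (fun x : E => ⨆ j, (inner ℝ x (y j) - c j))
      = fun x : E => Finset.univ.sup' Finset.univ_nonempty (fun j => inner ℝ x (y j) - c j) := by
    funext x
    exact (Finset.sup'_univ_eq_ciSup _).symm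
  rw [h]
  exact Continuous.finset_sup'_apply Finset.univ_nonempty fun j _ => by fun_prop

/-- The `s → 0` limit for the path argument: if `c` is optimal for the source density
`1 + s * g` on `K` (same cell masses as the optimal prices `c0` of the uniform source) and `s` is
small, then the potentials of `c` and `c0`, integrated against the mean-zero function `g`,
are close. -/
theorem potential_limit [Nonempty ι] {K : Set E} (hKc : IsCompact K) (hKconv : Convex ℝ K)
    (y : ι → E) (hy : Function.Injective y) (c0 : ι → ℝ)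
    (hpos : ∀ j, 0 < volume {x | x ∈ K ∧ ∀ k, inner ℝ x (y k) - c0 k ≤ inner ℝ x (y j) - c0 j})
    (g : E → ℝ) (hg : Measurable g) {G : ℝ} (hgb : ∀ x, |g x| ≤ G)
    (hg0 : ∫ x in K, g x = 0) {ε : ℝ} (hε : 0 < ε) :
    ∃ δ : ℝ, 0 < δ ∧ ∀ s : ℝ, |s| < δ → ∀ c : ι → ℝ,
      (∀ j, ∫ x in {x | x ∈ K ∧ ∀ k, inner ℝ x (y k) - c k ≤ inner ℝ x (y j) - c j},
          (1 + s * g x)
        = volume.real {x | x ∈ K ∧ ∀ k, inner ℝ x (y k) - c0 k ≤ inner ℝ x (y j) - c0 j}) →
      |(∫ x in K, (⨆ j, (inner ℝ x (y j) - c j)) * g x)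
          - ∫ x in K, (⨆ j, (inner ℝ x (y j) - c0 j)) * g x| ≤ ε := by
  have hKcl : IsClosed K := hKc.isClosed
  have hKfin : volume K ≠ ⊤ := hKc.measure_lt_top.ne
  have hG0 : 0 ≤ G := (abs_nonneg _).trans (hgb 0)
  set V := volume.real K with hV
  have hV0 : 0 ≤ V := measureReal_nonneg
  -- tolerance for the prices
  set ε' := ε / (G * V + 1) with hε'
  have hden : 0 < G * V + 1 := by positivity
  have hε'0 : 0 < ε' := div_pos hε hden
  obtain ⟨η, hη, hstab⟩ := prices_stable hKc hKconv y hy c0 hpos hε'0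
  refine ⟨η / (G * V + 1), div_pos hη hden, fun s hs c hc => ?_⟩
  change ∀ j, ∫ x in lagCell K y c j, (1 + s * g x) = volume.real (lagCell K y c0 j) at hc
  have hfinc : ∀ (c : ι → ℝ) (j : ι), volume (lagCell K y c j) ≠ ⊤ := fun c j =>
    ((measure_mono (lagCell_subset K y c j)).trans_lt hKc.measure_lt_top).ne
  have hgint : ∀ S : Set E, S ⊆ K → IntegrableOn g S := by
    intro S hS
    have hSfin : volume S < ⊤ := (measure_mono hS).trans_lt hKc.measure_lt_top
    refine Measure.integrableOn_of_bounded hSfin.ne hg.aestronglyMeasurable (M := G) ?_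
    exact Filter.Eventually.of_forall fun x => by rw [Real.norm_eq_abs]; exact hgb x
  -- the cell volumes of c are close to those of c0
  have hvol : ∀ j, |(volume (lagCell K y c j)).toReal - (volume (lagCell K y c0 j)).toReal|
      ≤ η := by
    intro j
    have hS := lagCell_subset K y c j
    have hSfin : volume (lagCell K y c j) < ⊤ := (hfinc c j).lt_top
    have h1 : ∫ x in lagCell K y c j, (1 + s * g x)
        = (volume (lagCell K y c j)).toReal + s * ∫ x in lagCell K y c j, g x := by
      have hone : IntegrableOn (fun _ : E => (1 : ℝ)) (lagCell K y c j) :=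
        integrableOn_const hSfin.ne
      have hsg : IntegrableOn (fun x : E => s * g x) (lagCell K y c j) :=
        (hgint _ hS).const_mul s
      rw [integral_add hone hsg, integral_const_mul, setIntegral_const, smul_eq_mul, mul_one]
      rfl
    have h2 : |∫ x in lagCell K y c j, g x| ≤ G * V := by
      have h3 : ‖∫ x in lagCell K y c j, g x‖ ≤ G * volume.real (lagCell K y c j) :=
        norm_setIntegral_le_of_norm_le_const hSfin fun x _ => by
          rw [Real.norm_eq_abs]; exact hgb x
      have h4 : volume.real (lagCell K y c j) ≤ V :=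
        measureReal_mono hS hKfin
      rw [Real.norm_eq_abs] at h3
      exact h3.trans (mul_le_mul_of_nonneg_left h4 hG0)
    have h5 : (volume (lagCell K y c j)).toReal - (volume (lagCell K y c0 j)).toReal
        = -(s * ∫ x in lagCell K y c j, g x) := by
      have := hc j
      rw [h1] at this
      change _ = (volume (lagCell K y c0 j)).toReal at this
      linarith
    rw [h5, abs_neg, abs_mul]
    have h6 : |s| * |∫ x in lagCell K y c j, g x| ≤ η / (G * V + 1) * (G * V) :=
      mul_le_mul hs.le h2 (abs_nonneg _) (div_pos hη hden).le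
    have h7 : η / (G * V + 1) * (G * V) ≤ η := by
      rw [div_mul_eq_mul_div, div_le_iff₀ hden]
      nlinarith [mul_nonneg hG0 hV0]
    exact h6.trans h7
  obtain ⟨a, ha⟩ := hstab c hvol
  -- pointwise closeness of the potentials
  have hpt : ∀ x : E, |(⨆ j, (inner ℝ x (y j) - c j)) - (⨆ j, (inner ℝ x (y j) - c0 j)) - (-a)|
      ≤ ε' := by
    intro x
    refine abs_iSup_sub_iSup_le _ _ fun j => ?_
    have h1 := (ha j).le
    have h2 : inner ℝ x (y j) - c j - (inner ℝ x (y j) - c0 j) - -a = -(c j - c0 j - a) := by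
      ring
    rw [h2, abs_neg]
    exact h1
  -- integrability
  have hpotint : ∀ c : ι → ℝ,
      IntegrableOn (fun x => (⨆ j, (inner ℝ x (y j) - c j)) * g x) K := by
    intro c
    have hcont := continuous_lagPot y c
    obtain ⟨M, hM⟩ := hKc.exists_bound_of_continuousOn hcont.continuousOn
    refine Measure.integrableOn_of_bounded (M := M * G) hKfin
      (hcont.measurable.mul hg).aestronglyMeasurable ?_
    rw [ae_restrict_iff' hKcl.measurableSet]
    refine Filter.Eventually.of_forall fun x hx => ?_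
    rw [norm_mul]
    have hM0 : 0 ≤ M := (norm_nonneg _).trans (hM x hx)
    exact mul_le_mul (hM x hx) (by rw [Real.norm_eq_abs]; exact hgb x) (norm_nonneg _) hM0
  have hdiff : (∫ x in K, (⨆ j, (inner ℝ x (y j) - c j)) * g x)
      - ∫ x in K, (⨆ j, (inner ℝ x (y j) - c0 j)) * g x
      = ∫ x in K, ((⨆ j, (inner ℝ x (y j) - c j)) - (⨆ j, (inner ℝ x (y j) - c0 j)) - (-a))
          * g x := by
    rw [← integral_sub (hpotint c) (hpotint c0)]
    have h1 : ∫ x in K, ((⨆ j, (inner ℝ x (y j) - c j)) - (⨆ j, (inner ℝ x (y j) - c0 j))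
        - (-a)) * g x
        = ∫ x in K, (((⨆ j, (inner ℝ x (y j) - c j)) * g x
            - (⨆ j, (inner ℝ x (y j) - c0 j)) * g x) + a * g x) := by
      congr 1
      funext x
      ring
    have hi1 : IntegrableOn (fun x => (⨆ j, (inner ℝ x (y j) - c j)) * g x
        - (⨆ j, (inner ℝ x (y j) - c0 j)) * g x) K := (hpotint c).sub (hpotint c0)
    have hi2 : IntegrableOn (fun x => a * g x) K := (hgint K subset_rfl).const_mul a
    rw [h1, integral_add hi1 hi2, integral_const_mul, hg0, mul_zero, add_zero]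
  rw [hdiff]
  have hbound : ‖∫ x in K, ((⨆ j, (inner ℝ x (y j) - c j)) - (⨆ j, (inner ℝ x (y j) - c0 j))
      - (-a)) * g x‖ ≤ ε' * G * volume.real K :=
    norm_setIntegral_le_of_norm_le_const hKfin.lt_top fun x _ => by
      rw [norm_mul, Real.norm_eq_abs, Real.norm_eq_abs]
      exact mul_le_mul (hpt x) (hgb x) (abs_nonneg _) hε'0.le
  rw [Real.norm_eq_abs] at hbound
  refine hbound.trans ?_
  rw [hε', mul_assoc, div_mul_eq_mul_div, div_le_iff₀ hden]
  nlinarith [mul_nonneg hG0 hV0]

end Vale.Agent.H32
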