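import Vale.Agent.H22.OT.Defs
import Vale.Agent.H32.OTUnique

/-!
# Limit of perturbed Laguerre potentials (support for P074, row L)

The statement of `Vale.Agent.H32.potential_limit` (module `OTUnique`) restated with the common
definitions of `Vale.Agent.H22.OT` and as a one-sided limit `s → 0+`.
-/

namespace Vale.Agent.H32.RowL

open MeasureTheory Set Vale.Agent.H22.OT

/-- As the perturbation `s * g` of the uniform source tends to zero, the pairing of the optimal
Laguerre potential with `g` tends to the pairing of the unperturbed optimal potential. -/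
theorem potential_limit {d : ℕ} {ι : Type*} [Fintype ι] [Nonempty ι]
    {K : Set (EuclideanSpace ℝ (Fin d))} (hKc : IsCompact K) (hKconv : Convex ℝ K)
    (hKint : (interior K).Nonempty)
    (g : EuclideanSpace ℝ (Fin d) → ℝ) (hg : Measurable g) (hgb : ∀ x, |g x| ≤ 1)
    (hg0 : ∫ x in K, g x = 0)
    (y : ι → EuclideanSpace ℝ (Fin d)) (hy : Function.Injective y)
    (m : ι → ℝ) (hm : ∀ j, 0 < m j)
    (c₀ : ι → ℝ) (h₀ : IsOptPrice K 0 y m c₀)
    (cs : ℝ → ι → ℝ) (s₀ : ℝ) (hs₀ : 0 < s₀)
    (hcs : ∀ s ∈ Ioc 0 s₀, IsOptPrice K (fun x => s * g x) y m (cs s)) :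
    Filter.Tendsto (fun s => ∫ x in K, lagPot y (cs s) x * g x) (nhdsWithin 0 (Ioi 0))
      (nhds (∫ x in K, lagPot y c₀ x * g x)) := by
  have _hK := hKint
  -- the unperturbed cells have volume `m j`
  have hvol : ∀ j, volume.real (Vale.Agent.H22.OT.lagCell K y c₀ j) = m j := by
    intro j
    have h := h₀ j
    simpa using h
  have hfin : ∀ j, volume (Vale.Agent.H22.OT.lagCell K y c₀ j) ≠ ⊤ := fun j =>
    ((measure_mono (Vale.Agent.H22.OT.lagCell_subset K y c₀ j)).trans_lt
      hKc.measure_lt_top).ne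
  have hpos : ∀ j, 0 < volume
      {x | x ∈ K ∧ ∀ k, inner ℝ x (y k) - c₀ k ≤ inner ℝ x (y j) - c₀ j} := by
    intro j
    have h1 : 0 < volume.real (Vale.Agent.H22.OT.lagCell K y c₀ j) := by
      rw [hvol j]; exact hm j
    have h2 : 0 < volume (Vale.Agent.H22.OT.lagCell K y c₀ j) := by
      by_contra hcon
      have h0 : volume (Vale.Agent.H22.OT.lagCell K y c₀ j) = 0 := le_antisymm (not_lt.1 hcon) bot_le
      rw [measureReal_def, h0] at h1
      simp at h1
    exact h2
  -- rewrite the potentials as suprema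
  have hpot : ∀ (c : ι → ℝ) (x : EuclideanSpace ℝ (Fin d)),
      lagPot y c x = ⨆ j, (inner ℝ x (y j) - c j) := by
    intro c x
    unfold lagPot
    rw [Finset.sup'_univ_eq_ciSup]
  rw [Metric.tendsto_nhdsWithin_nhds]
  intro ε hε
  obtain ⟨δ, hδ, hlim⟩ := Vale.Agent.H32.potential_limit hKc hKconv y hy c₀ hpos g hg hgb hg0
    (half_pos hε)
  refine ⟨min δ s₀, lt_min hδ hs₀, fun s hs hsd => ?_⟩
  have hs0 : 0 < s := hs
  rw [Real.dist_eq, sub_zero, abs_of_pos hs0] at hsd
  have hsδ : |s| < δ := by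
    rw [abs_of_pos hs0]; exact hsd.trans_le (min_le_left _ _)
  have hss : s ∈ Ioc 0 s₀ := ⟨hs0, (hsd.trans_le (min_le_right _ _)).le⟩
  have hc := hcs s hss
  have key := hlim s hsδ (cs s) (fun j => by
    have := hc j
    rw [← hvol j] at this
    exact this)
  rw [Real.dist_eq]
  have e1 : (∫ x in K, lagPot y (cs s) x * g x)
      = ∫ x in K, (⨆ j, (inner ℝ x (y j) - cs s j)) * g x := by
    simp only [hpot]
  have e2 : (∫ x in K, lagPot y c₀ x * g x)
      = ∫ x in K, (⨆ j, (inner ℝ x (y j) - c₀ j)) * g x := by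
    simp only [hpot]
  rw [e1, e2]
  exact lt_of_le_of_lt key (half_lt_self hε)

end Vale.Agent.H32.RowL
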