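import Mathlib

/-!
Measure-preserving cyclic translation of finitely many disjoint balls (support lemma for P074).
-/

open MeasureTheory Metric Set

namespace Vale.Agent.H32

section OTSwap

variable {E : Type*} [NormedAddCommGroup E] [InnerProductSpace ℝ E] [FiniteDimensional ℝ E]
  [MeasurableSpace E] [BorelSpace E]

/-- Cyclic shift of the balls `closedBall (c i) r`: the ball number `i + 1` is translated onto the
ball number `i`; points outside the balls do not move. -/
noncomputable def otShift {n : ℕ} (c : Fin (n + 1) → E) (r : ℝ) (x : E) : E :=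
  x + ∑ i : Fin (n + 1), (closedBall (c (i + 1)) r).indicator (fun _ => c i - c (i + 1)) x

theorem measurable_otShift {n : ℕ} (c : Fin (n + 1) → E) (r : ℝ) : Measurable (otShift c r) := by
  unfold otShift
  exact measurable_id.add (Finset.measurable_sum _ fun i _ =>
    measurable_const.indicator measurableSet_closedBall)

omit [InnerProductSpace ℝ E] [FiniteDimensional ℝ E] [MeasurableSpace E] [BorelSpace E] in
theorem otShift_of_mem {n : ℕ} (c : Fin (n + 1) → E) (r : ℝ)
    (hdisj : ∀ i j, i ≠ j → Disjoint (closedBall (c i) r) (closedBall (c j) r))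
    (i : Fin (n + 1)) {x : E} (hx : x ∈ closedBall (c (i + 1)) r) :
    otShift c r x = x + (c i - c (i + 1)) := by
  unfold otShift
  congr 1
  rw [Finset.sum_eq_single i]
  · exact indicator_of_mem hx _
  · intro j _ hji
    apply indicator_of_notMem
    intro hxj
    have hne : j + 1 ≠ i + 1 := fun h => hji (add_right_cancel h)
    exact Set.disjoint_left.mp (hdisj _ _ hne) hxj hx
  · intro h
    exact absurd (Finset.mem_univ i) h

omit [InnerProductSpace ℝ E] [FiniteDimensional ℝ E] [MeasurableSpace E] [BorelSpace E] in
theorem otShift_of_notMem {n : ℕ} (c : Fin (n + 1) → E) (r : ℝ) {x : E}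
    (hx : ∀ j, x ∉ closedBall (c j) r) : otShift c r x = x := by
  unfold otShift
  rw [Finset.sum_eq_zero, add_zero]
  intro i _
  exact indicator_of_notMem (hx _) _

omit [InnerProductSpace ℝ E] [FiniteDimensional ℝ E] [MeasurableSpace E] [BorelSpace E] in
theorem mem_closedBall_shift_iff {n : ℕ} (c : Fin (n + 1) → E) (r : ℝ) (i : Fin (n + 1)) (x : E) :
    x + (c i - c (i + 1)) ∈ closedBall (c i) r ↔ x ∈ closedBall (c (i + 1)) r := by
  simp only [mem_closedBall, dist_eq_norm]
  have : x + (c i - c (i + 1)) - c i = x - c (i + 1) := by abel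
  rw [this]

theorem integrableOn_inner_of_bdd {S : Set E} (hSm : MeasurableSet S) (hS : volume S ≠ ⊤)
    (f g : E → E) (hf : Measurable f) (hg : Measurable g) (D R : ℝ) (hfD : ∀ x ∈ S, ‖f x‖ ≤ D)
    (hgR : ∀ x, ‖g x‖ ≤ R) : IntegrableOn (fun x => inner ℝ (f x) (g x)) S volume := by
  refine Measure.integrableOn_of_bounded hS (hf.inner hg).aestronglyMeasurable (M := D * R) ?_
  refine (ae_restrict_iff' hSm).mpr (Filter.Eventually.of_forall fun x hx => ?_)
  calc ‖inner ℝ (f x) (g x)‖ ≤ ‖f x‖ * ‖g x‖ := norm_inner_le_norm _ _
    _ ≤ D * R := mul_le_mul (hfD x hx) (hgR x) (norm_nonneg _) ((norm_nonneg _).trans (hfD x hx))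

/-- Cyclic translation of finitely many pairwise disjoint closed balls of the same radius inside a
bounded measurable set `K`: a measurable map preserving the volume on `K`, with the exact change of
the integral of `⟨x, T x⟩`. -/
theorem exists_cyclic_shift (K : Set E) (hK : MeasurableSet K) (hKb : Bornology.IsBounded K)
    (n : ℕ) (c : Fin (n + 1) → E) (r : ℝ) (hsub : ∀ i, Metric.closedBall (c i) r ⊆ K)
    (hdisj : ∀ i j, i ≠ j → Disjoint (Metric.closedBall (c i) r) (Metric.closedBall (c j) r))
    (T : E → E) (hT : Measurable T) (R : ℝ) (hTb : ∀ x, ‖T x‖ ≤ R) :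
    ∃ τ : E → E, Measurable τ ∧
      (MeasureTheory.volume.restrict K).map τ = MeasureTheory.volume.restrict K ∧
      ∫ x in K, inner ℝ x (T (τ x)) = (∫ x in K, inner ℝ x (T x)) +
        ∑ i, ∫ u in Metric.closedBall (c i) r, inner ℝ (c (i + 1) - c i) (T u) := by
  classical
  set B : Fin (n + 1) → Set E := fun j => closedBall (c j) r with hB
  set U : Set E := K \ ⋃ j, B j with hUdef
  have hBm : ∀ j, MeasurableSet (B j) := fun j => measurableSet_closedBall
  have hUm : MeasurableSet U := hK.diff (MeasurableSet.iUnion hBm)
  have hKfin : volume K < ⊤ := hKb.measure_lt_top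
  have hUK : U ⊆ K := sdiff_subset
  have hdec : volume.restrict K = volume.restrict U + ∑ j, volume.restrict (B j) := by
    have hKeq : K = U ∪ ⋃ j, B j := by
      ext x
      simp only [hUdef, mem_union, mem_sdiff, mem_iUnion]
      constructor
      · intro hx
        by_cases h : ∃ j, x ∈ B j
        · exact Or.inr h
        · exact Or.inl ⟨hx, h⟩
      · rintro (⟨hx, -⟩ | ⟨j, hj⟩)
        · exact hx
        · exact hsub j hj
    have hd : Disjoint U (⋃ j, B j) := disjoint_sdiff_left
    conv_lhs => rw [hKeq]
    rw [Measure.restrict_union hd (MeasurableSet.iUnion hBm),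
      Measure.restrict_iUnion (fun i j hij => hdisj i j hij) hBm, Measure.sum_fintype]
  set v : Fin (n + 1) → E := fun i => c i - c (i + 1) with hv
  have hτ := measurable_otShift (E := E) c r
  have hτU : ∀ x ∈ U, otShift c r x = x := by
    intro x hx
    apply otShift_of_notMem
    intro j hj
    exact hx.2 (mem_iUnion.mpr ⟨j, hj⟩)
  have hτB : ∀ i, ∀ x ∈ B (i + 1), otShift c r x = x + v i :=
    fun i x hx => otShift_of_mem c r hdisj i hx
  have hmapU : (volume.restrict U).map (otShift c r) = volume.restrict U := by
    have : otShift c r =ᵐ[volume.restrict U] id :=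
      (ae_restrict_iff' hUm).mpr (Filter.Eventually.of_forall hτU)
    rw [Measure.map_congr this, Measure.map_id]
  have htr : ∀ i, (volume.restrict (B (i + 1))).map (fun x => x + v i) = volume.restrict (B i) := by
    intro i
    have h2 : (fun x : E => x + v i) ⁻¹' (B i) = B (i + 1) := by
      ext x
      exact mem_closedBall_shift_iff c r i x
    rw [← h2, ← Measure.restrict_map (measurable_add_const (v i)) (hBm i),
      map_add_right_eq_self]
  have hmapB : ∀ i, (volume.restrict (B (i + 1))).map (otShift c r) = volume.restrict (B i) := by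
    intro i
    have h1 : otShift c r =ᵐ[volume.restrict (B (i + 1))] (fun x => x + v i) :=
      (ae_restrict_iff' (hBm _)).mpr (Filter.Eventually.of_forall (hτB i))
    rw [Measure.map_congr h1, htr i]
  refine ⟨otShift c r, hτ, ?_, ?_⟩
  · rw [hdec, Measure.map_add _ _ hτ, hmapU]
    congr 1
    have hsum : (∑ j, volume.restrict (B j)).map (otShift c r)
        = ∑ j, (volume.restrict (B j)).map (otShift c r) := by
      rw [← Measure.mapₗ_apply_of_measurable hτ, map_sum]
      exact Finset.sum_congr rfl fun j _ => Measure.mapₗ_apply_of_measurable hτ _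
    rw [hsum, ← Equiv.sum_comp (Equiv.addRight (1 : Fin (n + 1)))
      (fun j => (volume.restrict (B j)).map (otShift c r))]
    simp only [Equiv.coe_addRight, hmapB]
  · obtain ⟨C, hC⟩ := hKb.exists_norm_le
    have hfinS : ∀ S : Set E, S ⊆ K → volume S ≠ ⊤ :=
      fun S hS => ((measure_mono hS).trans_lt hKfin).ne
    have hsplit : ∀ g : E → ℝ, IntegrableOn g K volume →
        ∫ x in K, g x = (∫ x in U, g x) + ∑ j, ∫ x in B j, g x := by
      intro g hg
      have hgU : Integrable g (volume.restrict U) := hg.mono_set hUK
      have hgB : ∀ j, Integrable g (volume.restrict (B j)) := fun j => hg.mono_set (hsub j)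
      rw [hdec, integral_add_measure hgU (integrable_finsetSum_measure.mpr fun j _ => hgB j),
        integral_finsetSum_measure fun j _ => hgB j]
    have hg1 : IntegrableOn (fun x => inner ℝ x (T (otShift c r x))) K volume :=
      integrableOn_inner_of_bdd hK hKfin.ne id (fun x => T (otShift c r x)) measurable_id
        (hT.comp hτ) C R (fun x hx => hC x hx) (fun x => hTb _)
    have hg0 : IntegrableOn (fun x => inner ℝ x (T x)) K volume :=
      integrableOn_inner_of_bdd hK hKfin.ne id T measurable_id hT C R (fun x hx => hC x hx) hTb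
    rw [hsplit _ hg1, hsplit _ hg0]
    have e1 : ∫ x in U, inner ℝ x (T (otShift c r x)) = ∫ x in U, inner ℝ x (T x) :=
      setIntegral_congr_fun hUm (fun x hx => by rw [hτU x hx])
    have e2 : ∀ i, ∫ x in B (i + 1), inner ℝ x (T (otShift c r x))
        = (∫ u in B i, inner ℝ u (T u)) + ∫ u in B i, inner ℝ (c (i + 1) - c i) (T u) := by
      intro i
      have h1 : ∫ x in B (i + 1), inner ℝ x (T (otShift c r x))
          = ∫ x in B (i + 1), inner ℝ x (T (x + v i)) :=
        setIntegral_congr_fun (hBm _) (fun x hx => by rw [hτB i x hx])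
      have h2 : ∫ x in B (i + 1), inner ℝ x (T (x + v i))
          = ∫ u in B i, inner ℝ (u - v i) (T u) := by
        rw [← htr i, (measurableEmbedding_addRight (v i)).integral_map]
        simp only [add_sub_cancel_right]
      have h3 : ∫ u in B i, inner ℝ (u - v i) (T u)
          = (∫ u in B i, inner ℝ u (T u)) + ∫ u in B i, inner ℝ (c (i + 1) - c i) (T u) := by
        rw [← integral_add]
        · refine integral_congr_ae (Filter.Eventually.of_forall fun u => ?_)
          simp only [hv]
          rw [← inner_add_left]
          congr 1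
          abel
        · exact integrableOn_inner_of_bdd (hBm i) (hfinS _ (hsub i)) id T measurable_id hT C R
            (fun x hx => hC x (hsub i hx)) hTb
        · exact integrableOn_inner_of_bdd (hBm i) (hfinS _ (hsub i)) (fun _ => c (i + 1) - c i) T
            measurable_const hT ‖c (i + 1) - c i‖ R (fun x hx => le_rfl) hTb
      rw [h1, h2, h3]
    rw [e1, ← Equiv.sum_comp (Equiv.addRight (1 : Fin (n + 1)))
      (fun j => ∫ x in B j, inner ℝ x (T (otShift c r x)))]
    simp only [Equiv.coe_addRight, e2, Finset.sum_add_distrib]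
    rw [add_assoc]

end OTSwap

end Vale.Agent.H32
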